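import Vale.Agent.Results.P125.A_TN

/-!
Uniform power saving for the summing operators `T_N : l1^N → l∞^N` along stationary reversible
Markov chains, for the mean and for the second moment of the displacement. The second moment bound
follows from the bound on the mean since the displacement after `t` steps is at most `t`.
-/

open Finset

namespace Vale.Agent.Results.P125.A00_master

variable {S : Type*} [Fintype S] [DecidableEq S]

lemma pow_nonneg' (P : Matrix S S ℝ) (hP0 : ∀ u v, 0 ≤ P u v) (t : ℕ) (u v : S) :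
    0 ≤ (P ^ t) u v := by
  induction t generalizing v with
  | zero =>
    rw [pow_zero, Matrix.one_apply]
    split_ifs <;> norm_num
  | succ t ih =>
    rw [pow_succ, Matrix.mul_apply]
    exact Finset.sum_nonneg (fun w _ => mul_nonneg (ih w) (hP0 w v))

/-- Along a path of positive probability, `f` moves by at most the length of the path in `l1`. -/
lemma path_bound (P : Matrix S S ℝ) (π : S → ℝ)
    (hP0 : ∀ u v, 0 ≤ P u v) (hπ0 : ∀ u, 0 ≤ π u)
    (hrev : ∀ u v, π u * P u v = π v * P v u)
    (N : ℕ) (f : ℕ → S → ℝ)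
    (hf : ∀ u v, 0 < π u * P u v → ∑ i ∈ range N, |f i v - f i u| ≤ 1) (t : ℕ) (u v : S)
    (h : 0 < π u * (P ^ t) u v) :
    0 < π v ∧ ∑ i ∈ range N, |f i v - f i u| ≤ t := by
  induction t generalizing v with
  | zero =>
    rw [pow_zero] at h
    by_cases huv : u = v
    · subst huv
      simp only [Matrix.one_apply_eq, mul_one] at h
      simp [h]
    · rw [Matrix.one_apply_ne huv, mul_zero] at h
      exact absurd h (lt_irrefl _)
  | succ t ih =>
    rw [pow_succ, Matrix.mul_apply, Finset.mul_sum] at h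
    obtain ⟨w, -, hw⟩ : ∃ w ∈ (Finset.univ : Finset S), 0 < π u * ((P ^ t) u w * P w v) := by
      by_contra hc
      push Not at hc
      exact absurd (Finset.sum_nonpos hc) (not_le.mpr h)
    have hPwv : 0 < P w v := by
      rcases (hP0 w v).lt_or_eq with h1 | h1
      · exact h1
      · rw [← h1] at hw
        simp at hw
    have h1 : 0 < π u * (P ^ t) u w := by
      rcases (mul_nonneg (hπ0 u) (pow_nonneg' P hP0 t u w)).lt_or_eq with h2 | h2
      · exact h2
      · have : π u * ((P ^ t) u w * P w v) = (π u * (P ^ t) u w) * P w v := by ring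
        rw [this, ← h2] at hw
        simp at hw
    obtain ⟨hπw, hsum⟩ := ih w h1
    have hedge : 0 < π w * P w v := mul_pos hπw hPwv
    have hπv : 0 < π v := by
      rcases (hπ0 v).lt_or_eq with h2 | h2
      · exact h2
      · rw [hrev, ← h2] at hedge
        simp at hedge
    refine ⟨hπv, ?_⟩
    have hstep := hf w v hedge
    have htri : ∑ i ∈ range N, |f i v - f i u| ≤
        ∑ i ∈ range N, |f i v - f i w| + ∑ i ∈ range N, |f i w - f i u| := by
      rw [← Finset.sum_add_distrib]
      refine Finset.sum_le_sum (fun i _ => ?_)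
      have : f i v - f i u = (f i v - f i w) + (f i w - f i u) := by ring
      rw [this]
      exact abs_add_le _ _
    push_cast
    linarith

/-- The maximal initial sum is at most the `l1` distance. -/
lemma sup_le_sum (N : ℕ) (a : ℕ → ℝ) :
    (range (N + 1)).sup' nonempty_range_add_one (fun x => |∑ i ∈ range x, a i|)
      ≤ ∑ i ∈ range N, |a i| := by
  refine Finset.sup'_le _ _ (fun x hx => ?_)
  have hxN : x ≤ N := Nat.lt_succ_iff.mp (Finset.mem_range.mp hx)
  calc |∑ i ∈ range x, a i| ≤ ∑ i ∈ range x, |a i| := Finset.abs_sum_le_sum_abs _ _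
    _ ≤ ∑ i ∈ range N, |a i| :=
      Finset.sum_le_sum_of_subset_of_nonneg (Finset.range_mono hxN) (fun _ _ _ => abs_nonneg _)

/-- For a finite stationary reversible chain and `f : S → ℝ^N` moving by at most one in `l1` along
each transition: the mean of the maximal initial sum of `f (Z_t) - f (Z_0)` is at most
`1000 t^(49/50)` and its second moment is at most `1000 t^(2 - 1/50)`, with no dependence on `N` or
on the chain. -/
theorem result (P : Matrix S S ℝ) (π : S → ℝ)
    (hP0 : ∀ u v, 0 ≤ P u v) (hP1 : ∀ u, ∑ v, P u v = 1)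
    (hπ0 : ∀ u, 0 ≤ π u) (hπ1 : ∑ u, π u = 1)
    (hrev : ∀ u v, π u * P u v = π v * P v u)
    (N : ℕ) (f : ℕ → S → ℝ)
    (hf : ∀ u v, 0 < π u * P u v → ∑ i ∈ range N, |f i v - f i u| ≤ 1)
    (t : ℕ) (ht : 1 ≤ t) :
    ∑ u, ∑ v, π u * (P ^ t) u v *
        (range (N + 1)).sup' nonempty_range_add_one
          (fun x => |∑ i ∈ range x, (f i v - f i u)|)
      ≤ 1000 * (t : ℝ) ^ (49 / 50 : ℝ) ∧
    ∑ u, ∑ v, π u * (P ^ t) u v *
        ((range (N + 1)).sup' nonempty_range_add_one
          (fun x => |∑ i ∈ range x, (f i v - f i u)|)) ^ 2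
      ≤ 1000 * (t : ℝ) ^ ((2 : ℝ) - 1 / 50) := by
  have h1 := Vale.Agent.Results.P125.A_TN.result P π hP0 hP1 hπ0 hπ1 hrev N f hf t ht
  refine ⟨h1, ?_⟩
  have htpos : (0 : ℝ) < t := by exact_mod_cast ht
  have hterm : ∀ u v, π u * (P ^ t) u v *
      ((range (N + 1)).sup' nonempty_range_add_one
        (fun x => |∑ i ∈ range x, (f i v - f i u)|)) ^ 2 ≤
      (t : ℝ) * (π u * (P ^ t) u v *
        (range (N + 1)).sup' nonempty_range_add_one
          (fun x => |∑ i ∈ range x, (f i v - f i u)|)) := by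
    intro u v
    set X := (range (N + 1)).sup' nonempty_range_add_one
      (fun x => |∑ i ∈ range x, (f i v - f i u)|) with hX
    have hX0 : 0 ≤ X := by
      have h0 : (0 : ℕ) ∈ range (N + 1) := Finset.mem_range.mpr (Nat.succ_pos N)
      exact le_trans (abs_nonneg _) (Finset.le_sup' (fun x => |∑ i ∈ range x, (f i v - f i u)|) h0)
    have hc0 : 0 ≤ π u * (P ^ t) u v := mul_nonneg (hπ0 u) (pow_nonneg' P hP0 t u v)
    rcases hc0.lt_or_eq with hc | hc
    · have hXt : X ≤ t := by
        have h2 := (path_bound P π hP0 hπ0 hrev N f hf t u v hc).2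
        exact le_trans (sup_le_sum N (fun i => f i v - f i u)) h2
      have : X ^ 2 ≤ (t : ℝ) * X := by nlinarith
      calc π u * (P ^ t) u v * X ^ 2 ≤ π u * (P ^ t) u v * ((t : ℝ) * X) :=
            mul_le_mul_of_nonneg_left this hc0
        _ = (t : ℝ) * (π u * (P ^ t) u v * X) := by ring
    · rw [← hc]
      simp
  have hsum : ∑ u, ∑ v, π u * (P ^ t) u v *
      ((range (N + 1)).sup' nonempty_range_add_one
        (fun x => |∑ i ∈ range x, (f i v - f i u)|)) ^ 2 ≤
      (t : ℝ) * ∑ u, ∑ v, π u * (P ^ t) u v *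
        (range (N + 1)).sup' nonempty_range_add_one
          (fun x => |∑ i ∈ range x, (f i v - f i u)|) := by
    rw [Finset.mul_sum]
    refine Finset.sum_le_sum (fun u _ => ?_)
    rw [Finset.mul_sum]
    exact Finset.sum_le_sum (fun v _ => hterm u v)
  have hexp : (t : ℝ) * (1000 * (t : ℝ) ^ (49 / 50 : ℝ)) = 1000 * (t : ℝ) ^ ((2 : ℝ) - 1 / 50) := by
    have : (2 : ℝ) - 1 / 50 = 1 + 49 / 50 := by norm_num
    rw [this, Real.rpow_add htpos, Real.rpow_one]
    ring
  calc _ ≤ _ := hsum
    _ ≤ (t : ℝ) * (1000 * (t : ℝ) ^ (49 / 50 : ℝ)) := mul_le_mul_of_nonneg_left h1 htpos.le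
    _ = _ := hexp

end Vale.Agent.Results.P125.A00_master
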