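import Vale.Agent.Lib.P125.Final

/-!
Uniform power saving for the summing operators `T_N : l1^N → l∞^N` along stationary reversible
Markov chains: if `f : S → ℝ^N` moves by at most one in `l1` along each transition, then the
mean of the sup norm of `T_N (f (Z_t) - f (Z_0))` is at most `1000 t^(49/50)`, with no dependence
on `N` or on the chain.
-/

open Finset

namespace Vale.Agent.Results.P125.A_TN

theorem result {S : Type*} [Fintype S] [DecidableEq S] (P : Matrix S S ℝ) (π : S → ℝ)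
    (hP0 : ∀ u v, 0 ≤ P u v) (hP1 : ∀ u, ∑ v, P u v = 1)
    (hπ0 : ∀ u, 0 ≤ π u) (hπ1 : ∑ u, π u = 1)
    (hrev : ∀ u v, π u * P u v = π v * P v u)
    (N : ℕ) (f : ℕ → S → ℝ)
    (hf : ∀ u v, 0 < π u * P u v → ∑ i ∈ range N, |f i v - f i u| ≤ 1)
    (t : ℕ) (ht : 1 ≤ t) :
    ∑ u, ∑ v, π u * (P ^ t) u v *
        (range (N + 1)).sup' (nonempty_range_add_one)
          (fun x => |∑ i ∈ range x, (f i v - f i u)|)
      ≤ 1000 * (t : ℝ) ^ (49 / 50 : ℝ) := by
  have hP : Vale.Agent.Lib.P125.IsRevK π P := ⟨hP0, hP1, hrev⟩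
  have h := Vale.Agent.Lib.P125.D1_final hP hπ0 hπ1 f N hf ht
  refine le_trans (le_of_eq ?_) h
  unfold Vale.Agent.Lib.P125.D1
  refine sum_congr rfl (fun u _ => ?_)
  rw [mul_sum]
  refine sum_congr rfl (fun v _ => ?_)
  rw [mul_assoc]
  congr 2
  unfold Vale.Agent.Lib.P125.Nm Vale.Agent.Lib.P125.nrm Vale.Agent.Lib.P125.Fs
  simp_rw [sum_sub_distrib]

end Vale.Agent.Results.P125.A_TN
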