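import Vale.Agent.Lib.P125.Main

open Finset BigOperators Matrix

/-- Summation operators have uniform power saving for the displacement of reversible chains:
for every finite stationary reversible chain `(π, P)`, every `N` and every `f : S → ℝ^N`
which moves by at most `1` in `ℓ¹` along every edge of positive probability, the second moment
of the maximal initial sum of `f (Z_t) - f (Z_0)` is at most `2 * 10 ^ 13 * t ^ (2 - 1 / 200000)`,
with constants independent of the chain and of `N`. -/
theorem Vale.Agent.Results.P125.A_summing.result :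
    ∀ (S : Type) [Fintype S] [DecidableEq S] (π : S → ℝ) (P : Matrix S S ℝ),
      (∀ a, 0 ≤ π a) → ∑ a, π a = 1 → (∀ a b, 0 ≤ P a b) → (∀ a, ∑ b, P a b = 1) →
      (∀ a b, π a * P a b = π b * P b a) →
      ∀ (N : ℕ) (f : S → ℕ → ℝ),
        (∀ a b, 0 < π a * P a b → ∑ k ∈ range N, |f b k - f a k| ≤ 1) →
        ∀ t : ℕ, 1 ≤ t →
          ∑ a, ∑ b, π a * (P ^ t) a b *
              ((Finset.range (N + 1)).sup' ⟨0, by simp⟩
                fun x => |∑ k ∈ range x, (f b k - f a k)|) ^ 2
            ≤ 2 * 10 ^ 13 * (t : ℝ) ^ ((2 : ℝ) - 1 / 200000) := by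
  intro S _ _ π P hπ hπ1 hP hP1 hrev N f hf t ht
  exact Vale.Agent.Lib.P125.summing_main π P hπ hπ1 hP hP1 hrev N f hf ht
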